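import Vale.Agent.P184.H977.RW

/-!
# Restricted wreath products of virtually abelian groups with finite groups
-/

namespace Vale.Agent.P184.H113

open Vale.Agent.P184.H977

/-- The map of restricted wreath products given by a homomorphism of the base groups. -/
def rwMap {B C Q : Type*} [Group B] [Group C] [Group Q] (φ : B →* C) : RW B Q →* RW C Q where
  toFun a := ⟨fun x => φ (a.fn x), a.pt, a.fin.subset fun x hx h => hx (by rw [h, map_one])⟩
  map_one' := RW.ext' (fun x => by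
    show φ ((1 : RW B Q).fn x) = 1
    rw [RW.one_fn, map_one]) rfl
  map_mul' a b := RW.ext' (fun x => by
    show φ ((a * b).fn x) = φ (a.fn x) * φ (b.fn (a.pt⁻¹ * x))
    rw [RW.mul_fn, map_mul]) rfl

theorem rwMap_fn {B C Q : Type*} [Group B] [Group C] [Group Q] (φ : B →* C) (a : RW B Q) (x : Q) :
    (rwMap φ a).fn x = φ (a.fn x) := rfl

theorem rwMap_pt {B C Q : Type*} [Group B] [Group C] [Group Q] (φ : B →* C) (a : RW B Q) :
    (rwMap φ a).pt = a.pt := rfl

instance finite_RW {B Q : Type*} [Group B] [Group Q] [Finite B] [Finite Q] : Finite (RW B Q) :=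
  Finite.of_injective (fun a : RW B Q => (a.fn, a.pt)) fun a b h =>
    RW.ext (congrArg Prod.fst h) (congrArg Prod.snd h)

/-- **(T3)** A virtually abelian base and a finite top give a virtually abelian group. -/
theorem rw_va {B : Type*} [Group B] (A0 : Subgroup B) [A0.FiniteIndex]
    (hA0 : ∀ x ∈ A0, ∀ y ∈ A0, x * y = y * x) (Z : Type*) [Group Z] [Finite Z] (k : ℕ) :
    ∃ M : Subgroup (RW (Fin k → B) Z), M.Normal ∧ M.FiniteIndex ∧
      ∀ x ∈ M, ∀ y ∈ M, x * y = y * x := by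
  let φ : (Fin k → B) →* (Fin k → B ⧸ A0.normalCore) :=
    Pi.monoidHom fun i => (QuotientGroup.mk' A0.normalCore).comp (Pi.evalMonoidHom (fun _ => B) i)
  haveI : Finite (B ⧸ A0.normalCore) := inferInstance
  let Φ : RW (Fin k → B) Z →* RW (Fin k → B ⧸ A0.normalCore) Z := rwMap φ
  haveI : Finite Φ.range := inferInstance
  refine ⟨Φ.ker, inferInstance, Subgroup.finiteIndex_ker Φ, fun x hx y hy => ?_⟩
  have hmem : ∀ z ∈ Φ.ker, z.pt = 1 ∧ ∀ q i, z.fn q i ∈ A0 := by
    intro z hz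
    rw [MonoidHom.mem_ker] at hz
    refine ⟨by rw [← rwMap_pt φ z]; exact congrArg RW.pt hz, fun q i => ?_⟩
    have h1 : (Φ z).fn q i = 1 := by rw [hz]; rfl
    exact A0.normalCore_le ((QuotientGroup.eq_one_iff _).1 h1)
  obtain ⟨hx1, hx2⟩ := hmem x hx
  obtain ⟨hy1, hy2⟩ := hmem y hy
  refine RW.ext' (fun q => ?_) (by rw [RW.mul_pt, RW.mul_pt, hx1, hy1])
  rw [RW.mul_fn, RW.mul_fn, hx1, hy1, inv_one, one_mul]
  funext i
  exact hA0 _ (hx2 q i) _ (hy2 q i)

/-- A subgroup of a virtually abelian group is virtually abelian. -/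
theorem va_sub {G : Type*} [Group G] (M : Subgroup G) (hn : M.Normal) (hf : M.FiniteIndex)
    (hc : ∀ x ∈ M, ∀ y ∈ M, x * y = y * x) (L : Subgroup G) :
    ∃ N : Subgroup L, N.Normal ∧ N.FiniteIndex ∧ ∀ x ∈ N, ∀ y ∈ N, x * y = y * x :=
  ⟨M.subgroupOf L, inferInstance, inferInstance, fun x hx y hy =>
    Subtype.ext (hc _ (Subgroup.mem_subgroupOf.1 hx) _ (Subgroup.mem_subgroupOf.1 hy))⟩

/-- **(T3)** for the subgroups. -/
theorem rw_va_sub {B : Type*} [Group B] (A0 : Subgroup B) [A0.FiniteIndex]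
    (hA0 : ∀ x ∈ A0, ∀ y ∈ A0, x * y = y * x) (Z : Type*) [Group Z] [Finite Z] (k : ℕ)
    (L : Subgroup (RW (Fin k → B) Z)) :
    ∃ N : Subgroup L, N.Normal ∧ N.FiniteIndex ∧ ∀ x ∈ N, ∀ y ∈ N, x * y = y * x := by
  obtain ⟨M, h1, h2, h3⟩ := rw_va A0 hA0 Z k
  exact va_sub M h1 h2 h3 L

end Vale.Agent.P184.H113
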