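import Vale.Agent.P184.H977.K1

/-!
# P184, row K3: the coefficient at `t`

The fibre of `mu` over the invariant of `(t, 1)` is `(conjugacy class of t) × (finite set)`.
-/

namespace Vale.Agent.P184.H113

open Vale.Agent.P184 (IsIdem tau L1Bass VanishesAt)
open Vale.Agent.P184.H13

section

variable {G Q A : Type*} [Group G] [Group Q] [AddCommGroup A] (Z : Coc G Q A) (s : Q)

theorem hh_one (x : G ⧸ Hs Z s) : hh Z s 1 x = 1 := by
  have h := hh_mul Z s 1 1 x
  rw [one_smul, mul_one] at h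
  exact left_eq_mul.1 h

/-- `hh` of a conjugate, in the abelianization. -/
theorem of_hh_conj {t y : G} {x : G ⧸ Hs Z s} (hx : t • x = x) :
    Abelianization.of (hh Z s (y * t * y⁻¹) (y • x)) = Abelianization.of (hh Z s t x) := by
  have h1 : hh Z s (y * t * y⁻¹) (y • x) = hh Z s y x * hh Z s t x * hh Z s y⁻¹ (y • x) := by
    rw [hh_mul, inv_smul_smul, hh_mul, hx]
  have h2 : hh Z s y⁻¹ (y • x) * hh Z s y x = 1 := by
    have h := hh_mul Z s y⁻¹ y x
    rw [← h, inv_mul_cancel, hh_one]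
  have h3 : Abelianization.of (hh Z s y⁻¹ (y • x)) * Abelianization.of (hh Z s y x) = 1 := by
    rw [← map_mul, h2, map_one]
  rw [h1, map_mul, map_mul, mul_comm (Abelianization.of (hh Z s y x)), mul_assoc,
    mul_comm (Abelianization.of (hh Z s y x)), h3, mul_one]

/-- `cp` of a conjugate. -/
theorem cp_conj (hc : ∀ g h x, cp Z s (g * h) x = cp Z s g (h • x) + cp Z s h x)
    {t y : G} {x : G ⧸ Hs Z s} (hx : t • x = x) :
    cp Z s (y * t * y⁻¹) (y • x) = cp Z s t x := by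
  have h0 : cp Z s 1 x = 0 := by
    have h := hc 1 1 x
    rw [one_smul, mul_one] at h
    exact left_eq_add.1 h
  have h1 : cp Z s (y * t * y⁻¹) (y • x) = cp Z s y x + cp Z s t x + cp Z s y⁻¹ (y • x) := by
    rw [hc, inv_smul_smul, hc, hx]
  have h2 : cp Z s y⁻¹ (y • x) + cp Z s y x = 0 := by
    rw [← hc, inv_mul_cancel, h0]
  rw [h1, add_comm (cp Z s y x), add_assoc, add_comm (cp Z s y x), h2, add_zero]

/-- The fixed points of `g` with the invariant of `(t, 1)`. -/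
def FX (g : G) (m : Abelianization (Hs Z s)) (a : A) : Set (G ⧸ Hs Z s) :=
  {x | g • x = x ∧ Abelianization.of (hh Z s g x) = m ∧ cp Z s g x = a}

theorem mem_FX_conj (hc : ∀ g h x, cp Z s (g * h) x = cp Z s g (h • x) + cp Z s h x)
    {t y : G} {m : Abelianization (Hs Z s)} {a : A} {x : G ⧸ Hs Z s} :
    y • x ∈ FX Z s (y * t * y⁻¹) m a ↔ x ∈ FX Z s t m a := by
  have h1 : (y * t * y⁻¹) • (y • x) = y • x ↔ t • x = x := by
    rw [← mul_smul, inv_mul_cancel_right, mul_smul, smul_left_cancel_iff]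
  constructor
  · rintro ⟨h2, h3, h4⟩
    have h5 := h1.1 h2
    exact ⟨h5, by rw [← h3, of_hh_conj Z s h5], by rw [← h4, cp_conj Z s hc h5]⟩
  · rintro ⟨h2, h3, h4⟩
    exact ⟨h1.2 h2, by rw [of_hh_conj Z s h2, h3], by rw [cp_conj Z s hc h2, h4]⟩

theorem one_mem_FX {t : G} (ht : t ∈ Hs Z s) :
    ((1 : G) : G ⧸ Hs Z s) ∈ FX Z s t (Abelianization.of ⟨t, ht⟩)
      (cp Z s t ((1 : G) : G ⧸ Hs Z s)) := by
  have h1 : t • ((1 : G) : G ⧸ Hs Z s) = ((1 : G) : G ⧸ Hs Z s) := by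
    rw [MulAction.Quotient.smul_coe, smul_eq_mul, mul_one, QuotientGroup.eq, mul_one]
    exact inv_mem ht
  refine ⟨h1, ?_, rfl⟩
  have h2 : (((1 : G) : G ⧸ Hs Z s)).out ∈ Hs Z s := by
    have h := QuotientGroup.out_eq' ((1 : G) : G ⧸ Hs Z s)
    have h3 := QuotientGroup.eq.1 h.symm
    rwa [inv_one, one_mul] at h3
  have h3 : hh Z s t ((1 : G) : G ⧸ Hs Z s) =
      (⟨_, h2⟩ : Hs Z s)⁻¹ * ⟨t, ht⟩ * ⟨_, h2⟩ := by
    refine Subtype.ext ?_
    change (t • ((1 : G) : G ⧸ Hs Z s)).out⁻¹ * t * ((1 : G) : G ⧸ Hs Z s).out =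
      (((1 : G) : G ⧸ Hs Z s)).out⁻¹ * t * ((1 : G) : G ⧸ Hs Z s).out
    rw [h1]
  rw [h3, map_mul, map_mul, map_inv, mul_comm, mul_inv_cancel_left]

/-- pairs with nonzero charge -/
def PP : Type _ := Σ g : G, {x : G ⧸ Hs Z s // cp Z s g x ≠ 0}

/-- the inclusion -/
def toPP (j : JJ Z s) : PP Z s := ⟨j.1.1, j.1.2, j.2.2⟩

theorem toPP_inj : Function.Injective (toPP Z s) := by
  rintro ⟨⟨g, x⟩, h⟩ ⟨⟨g', x'⟩, h'⟩ hj
  have h1 : g = g' := congrArg Sigma.fst hj
  subst h1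
  have h2 := eq_of_heq (Sigma.mk.inj hj).2
  have h3 : x = x' := congrArg Subtype.val h2
  subst h3
  rfl

theorem summable_PP (hfin : ∀ g, {x | cp Z s g x ≠ 0}.Finite)
    (hcard : ∀ g, (({x | cp Z s g x ≠ 0} : Set _).ncard : ℝ) ≤ len Z g)
    (w : G → ℝ) (hw0 : ∀ g, 0 ≤ w g) (hw : Summable fun g => w g * (1 + len Z g)) :
    Summable fun p : Σ g : G, {x : G ⧸ Hs Z s // cp Z s g x ≠ 0} => w p.1 := by
  rw [summable_sigma_of_nonneg (fun p => hw0 _)]
  have hF : ∀ g, Finite {x : G ⧸ Hs Z s // cp Z s g x ≠ 0} := fun g => (hfin g).to_subtype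
  constructor
  · intro g
    have := hF g
    exact Summable.of_finite
  · have h1 : ∀ g, ∑' _ : {x : G ⧸ Hs Z s // cp Z s g x ≠ 0}, w g =
        (({x | cp Z s g x ≠ 0} : Set _).ncard : ℝ) * w g := by
      intro g
      rw [tsum_const, nsmul_eq_mul]
      rfl
    have h2 : Summable fun g => (({x | cp Z s g x ≠ 0} : Set _).ncard : ℝ) * w g := by
      refine Summable.of_nonneg_of_le (fun g => mul_nonneg (Nat.cast_nonneg _) (hw0 _))
        (fun g => ?_) hw
      rw [mul_comm]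
      exact mul_le_mul_of_nonneg_left ((hcard g).trans (by linarith)) (hw0 g)
    exact h2.congr fun g => (h1 g).symm

/-- The weights are summable. -/
theorem summable_wt (hfin : ∀ g, {x | cp Z s g x ≠ 0}.Finite)
    (hcard : ∀ g, (({x | cp Z s g x ≠ 0} : Set _).ncard : ℝ) ≤ len Z g)
    {q : ℕ} {e : Matrix (Fin q) (Fin q) (G → ℂ)} (hw : WSum Z e) :
    Summable fun j : JJ Z s => ‖wt Z s e j‖ := by
  have hs1 : Summable fun g => ∑ i, ‖e i i g‖ * (1 + len Z g) :=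
    summable_sum fun i _ => hw i i
  have hl : ∀ g, 0 ≤ 1 + len Z g := fun g => by
    have h3 : 0 ≤ len Z g := Nat.cast_nonneg _
    linarith
  have hs : Summable fun g => ‖∑ i, e i i g‖ * (1 + len Z g) := by
    refine Summable.of_nonneg_of_le (fun g => mul_nonneg (norm_nonneg _) (hl g)) (fun g => ?_) hs1
    rw [← Finset.sum_mul]
    exact mul_le_mul_of_nonneg_right (norm_sum_le _ _) (hl g)
  have h4 := summable_PP Z s hfin hcard (fun g => ‖∑ i, e i i g‖) (fun g => norm_nonneg _) hs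
  have h5 := h4.comp_injective (i := toPP Z s) (toPP_inj Z s)
  refine h5.congr fun j => ?_
  rfl

end

section

variable {G Q A : Type*} [Group G] [Group Q] [AddCommGroup A] (Z : Coc G Q A) (s : Q)
  (hc : ∀ g h x, cp Z s (g * h) x = cp Z s g (h • x) + cp Z s h x)
  (t : G) (m : Abelianization (Hs Z s)) (a : A) (ha : a ≠ 0)
  (y : (ConjClasses.mk t).carrier → G) (hy : ∀ g, y g * t * (y g)⁻¹ = g)

include hc hy in
theorem mem_aux (p : (ConjClasses.mk t).carrier × FX Z s t m a) :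
    y p.1 • (p.2 : G ⧸ Hs Z s) ∈ FX Z s (p.1 : G) m a := by
  have h := (mem_FX_conj Z s hc (y := y p.1)).2 p.2.2
  rwa [hy] at h

/-- the parametrization of the fibre -/
def par (p : (ConjClasses.mk t).carrier × FX Z s t m a) :
    {j : JJ Z s // mu Z s j = (m, Multiplicative.ofAdd a)} :=
  ⟨⟨((p.1 : G), y p.1 • (p.2 : G ⧸ Hs Z s)), (mem_aux Z s hc t m a y hy p).1, by
    rw [(mem_aux Z s hc t m a y hy p).2.2]; exact ha⟩,
    Prod.ext (mem_aux Z s hc t m a y hy p).2.1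
      (congrArg Multiplicative.ofAdd (mem_aux Z s hc t m a y hy p).2.2)⟩

theorem par_inj : Function.Injective (par Z s hc t m a ha y hy) := by
  rintro ⟨g, x⟩ ⟨g', x'⟩ h
  have h3 : ((g : G), y g • (x : G ⧸ Hs Z s)) = ((g' : G), y g' • (x' : G ⧸ Hs Z s)) :=
    congrArg (fun j => j.1.1) h
  have h4 : (g : G) = g' := congrArg Prod.fst h3
  have h5 : g = g' := Subtype.ext h4
  subst h5
  have h6 : y g • (x : G ⧸ Hs Z s) = y g • (x' : G ⧸ Hs Z s) := congrArg Prod.snd h3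
  have h7 : x = x' := Subtype.ext (smul_left_cancel _ h6)
  rw [h7]

theorem par_surj (hconj : ∀ h : Hs Z s, Abelianization.of h = m → IsConj t (h : G)) :
    Function.Surjective (par Z s hc t m a ha y hy) := by
  rintro ⟨⟨⟨g, x⟩, h3, h4⟩, h5⟩
  have h6 : Abelianization.of (hh Z s g x) = m := congrArg Prod.fst h5
  have h7 : cp Z s g x = a := congrArg Prod.snd h5
  have h3' : g • x = x := h3
  have hgx : x ∈ FX Z s g m a := ⟨h3', h6, h7⟩
  have h8 : IsConj t (hh Z s g x : G) := hconj _ h6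
  have h9 : (hh Z s g x : G) = x.out⁻¹ * g * x.out := by
    change (g • x).out⁻¹ * g * x.out = _
    rw [h3']
  have h10 : IsConj t g := by
    refine h8.trans (isConj_iff.2 ⟨x.out, ?_⟩)
    rw [h9]; group
  have h11 : g ∈ (ConjClasses.mk t).carrier :=
    ConjClasses.mem_carrier_iff_mk_eq.2 (ConjClasses.mk_eq_mk_iff_isConj.2 h10.symm)
  have h12 : (y ⟨g, h11⟩)⁻¹ • x ∈ FX Z s t m a := by
    rw [← mem_FX_conj Z s hc (y := y ⟨g, h11⟩), smul_inv_smul, hy]
    exact hgx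
  refine ⟨(⟨g, h11⟩, ⟨(y ⟨g, h11⟩)⁻¹ • x, h12⟩), ?_⟩
  refine Subtype.ext (Subtype.ext (Prod.ext rfl ?_))
  exact smul_inv_smul _ _

include hc ha hy in
/-- The sum over the fibre. -/
theorem key (hconj : ∀ h : Hs Z s, Abelianization.of h = m → IsConj t (h : G)) {q : ℕ}
    (e : Matrix (Fin q) (Fin q) (G → ℂ)) (hsum : Summable fun j : JJ Z s => ‖wt Z s e j‖)
    [Finite (FX Z s t m a)] :
    ∑' j : {j : JJ Z s // mu Z s j = (m, Multiplicative.ofAdd a)}, wt Z s e j =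
      (Nat.card (FX Z s t m a) : ℂ) * tau (ConjClasses.mk t) e := by
  let Φ := Equiv.ofBijective (par Z s hc t m a ha y hy)
    ⟨par_inj Z s hc t m a ha y hy, par_surj Z s hc t m a ha y hy hconj⟩
  have hsF : Summable fun j : {j : JJ Z s // mu Z s j = (m, Multiplicative.ofAdd a)} =>
      wt Z s e j.1 := (Summable.of_norm hsum).subtype _
  have hsP : Summable fun p : (ConjClasses.mk t).carrier × FX Z s t m a =>
      ∑ i, e i i (p.1 : G) := by
    refine (Φ.summable_iff.2 hsF).congr fun p => ?_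
    rfl
  have e1 : ∑' j : {j : JJ Z s // mu Z s j = (m, Multiplicative.ofAdd a)}, wt Z s e j.1 =
      ∑' p : (ConjClasses.mk t).carrier × FX Z s t m a, ∑ i, e i i (p.1 : G) := by
    rw [← Φ.tsum_eq]
    refine tsum_congr fun p => ?_
    rfl
  have e2 : ∑' p : (ConjClasses.mk t).carrier × FX Z s t m a, ∑ i, e i i (p.1 : G) =
      ∑' g : (ConjClasses.mk t).carrier, ∑' _ : FX Z s t m a, ∑ i, e i i (g : G) :=
    hsP.tsum_prod
  have e3 : ∀ g : (ConjClasses.mk t).carrier, ∑' _ : FX Z s t m a, ∑ i, e i i (g : G) =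
      (Nat.card (FX Z s t m a) : ℂ) * ∑ i, e i i (g : G) := by
    intro g
    rw [tsum_const, nsmul_eq_mul]
  rw [e1, e2, tsum_congr e3, tsum_mul_left]
  rfl

end

/-- Row K3, from K1 and K2. -/
theorem rowK3_of.{u, v, w} (h1 : RowK1.{u, v, w}) (h2 : RowK2.{u, v, w}) : RowK3.{u, v, w} := by
  intro G Q A _ _ _ Z hab q e hw s
  obtain ⟨hc, hfin, hcard, -, -, -⟩ := (h2 Z).2 s
  have hsum := summable_wt Z s hfin hcard hw
  refine ⟨hsum, ?_⟩
  intro t ht hts h0
  subst hts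
  obtain ⟨hconj, -⟩ := h1 Z hab t ht
  have hX : (FX Z (Z.pi t) t (Abelianization.of ⟨t, ht⟩)
      (cp Z (Z.pi t) t ((1 : G) : G ⧸ Hs Z (Z.pi t)))).Finite :=
    (hfin t).subset fun x hx h => h0 (hx.2.2.symm.trans h)
  have hXf := hX.to_subtype
  have hXn : Nonempty (FX Z (Z.pi t) t (Abelianization.of ⟨t, ht⟩)
      (cp Z (Z.pi t) t ((1 : G) : G ⧸ Hs Z (Z.pi t)))) := ⟨⟨_, one_mem_FX Z _ ht⟩⟩
  have hch : ∀ g : (ConjClasses.mk t).carrier, ∃ y : G, y * t * y⁻¹ = g := fun g =>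
    isConj_iff.1 (ConjClasses.mk_eq_mk_iff_isConj.1
      (ConjClasses.mem_carrier_iff_mk_eq.1 g.2).symm)
  choose y hy using hch
  refine ⟨Nat.card (FX Z (Z.pi t) t (Abelianization.of ⟨t, ht⟩)
      (cp Z (Z.pi t) t ((1 : G) : G ⧸ Hs Z (Z.pi t)))), Nat.card_pos, ?_⟩
  exact key Z _ hc t _ _ h0 y hy hconj e hsum

end Vale.Agent.P184.H113
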