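import Vale.Agent.P184.H856.LocDef
import Vale.Agent.P184.H856.POp
import Vale.Agent.P184.H847.Newt

/-!
# P184, locality, row C: an idempotent near an almost idempotent `1 ⊕ 0 + c`, `c` in a corner
-/

noncomputable section

namespace Vale.Agent.P184.H113.LocC

open Filter Topology
open Vale.Agent.P184.H13 (E dl co E_ext dl_apply dl_self)
open Vale.Agent.P184.H856
open Vale.Agent.P184.H856.Loc
open Vale.Agent.P184.H847 (nw exists_idem_near)

universe v w

variable {Y : Type v} {L : Type w} [Group L] {F : Set Y} {N : Subgroup L}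

omit [Group L] in
theorem exists_of_ne {K T : Op Y L} {p q : Y × L} (h : (K * T) (dl p) q ≠ 0) :
    ∃ r, T (dl p) r ≠ 0 ∧ K (dl r) q ≠ 0 := by
  by_contra hcon
  push Not at hcon
  refine h ?_
  have h1 := mul_entry K T p q
  have h2 : (fun r => T (dl p) r * K (dl r) q) = fun _ => 0 := by
    funext r
    by_cases hr : T (dl p) r = 0
    · rw [hr, zero_mul]
    · rw [hcon r hr, mul_zero]
  rw [h2] at h1
  exact h1.unique hasSum_zero

theorem cor_zero : (0 : Op Y L) ∈ Cor F N := by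
  refine ⟨fun y l z a m => rfl, fun y z l a h => (h rfl).elim⟩

theorem cor_add {S T : Op Y L} (hS : S ∈ Cor F N) (hT : T ∈ Cor F N) : S + T ∈ Cor F N := by
  refine ⟨eqv_add hS.1 hT.1, fun y z l a h => ?_⟩
  have h1 : S (dl (y, l)) (z, a) + T (dl (y, l)) (z, a) ≠ 0 := h
  by_cases hs : S (dl (y, l)) (z, a) = 0
  · rw [hs, zero_add] at h1
    exact hT.2 y z l a h1
  · exact hS.2 y z l a hs

theorem cor_sub {S T : Op Y L} (hS : S ∈ Cor F N) (hT : T ∈ Cor F N) : S - T ∈ Cor F N := by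
  refine ⟨eqv_sub hS.1 hT.1, fun y z l a h => ?_⟩
  have h1 : S (dl (y, l)) (z, a) - T (dl (y, l)) (z, a) ≠ 0 := h
  by_cases hs : S (dl (y, l)) (z, a) = 0
  · rw [hs, zero_sub, neg_ne_zero] at h1
    exact hT.2 y z l a h1
  · exact hS.2 y z l a hs

theorem cor_mul {S T : Op Y L} (hS : S ∈ Cor F N) (hT : T ∈ Cor F N) : S * T ∈ Cor F N := by
  refine ⟨eqv_mul hS.1 hT.1, fun y z l a h => ?_⟩
  obtain ⟨⟨x, b⟩, h1, h2⟩ := exists_of_ne h
  obtain ⟨h3, -, h4⟩ := hT.2 y x l b h1
  obtain ⟨-, h5, h6⟩ := hS.2 x z b a h2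
  refine ⟨h3, h5, ?_⟩
  have h7 := N.mul_mem h6 h4
  rwa [inv_mul_cancel_right_assoc'] at h7
where
  inv_mul_cancel_right_assoc' : ∀ {a b l : L}, a * b⁻¹ * (b * l⁻¹) = a * l⁻¹ := by
    intro a b l
    group

/-- diagonal operators -/
def Diag (P : Op Y L) : Prop := ∀ r s : Y × L, P (dl r) s ≠ 0 → r = s

theorem cor_mul_diag {S P : Op Y L} (hS : S ∈ Cor F N) (eP : Eqv P) (hP : Diag P) :
    S * P ∈ Cor F N := by
  refine ⟨eqv_mul hS.1 eP, fun y z l a h => ?_⟩
  obtain ⟨r, h1, h2⟩ := exists_of_ne h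
  obtain rfl := hP _ _ h1
  exact hS.2 y z l a h2

theorem cor_diag_mul {S P : Op Y L} (hS : S ∈ Cor F N) (eP : Eqv P) (hP : Diag P) :
    P * S ∈ Cor F N := by
  refine ⟨eqv_mul eP hS.1, fun y z l a h => ?_⟩
  obtain ⟨r, h1, h2⟩ := exists_of_ne h
  obtain rfl := hP _ _ h2
  exact hS.2 y z l a h1

theorem diag_blk : Diag (blk true true (1 : Op Y L)) := by
  rintro ⟨⟨b, y⟩, l⟩ ⟨⟨b', z⟩, a⟩ h
  by_cases h1 : true = b' ∧ true = b
  · obtain ⟨rfl, rfl⟩ := h1
    rw [blk_entry_same] at h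
    change (dl (y, l) : E (Y × L)) (z, a) ≠ 0 at h
    classical
    rw [dl_apply] at h
    by_contra hne
    refine h (if_neg fun h2 => hne ?_)
    obtain ⟨rfl, rfl⟩ := Prod.mk.inj h2
    rfl
  · refine (h (blk_entry_ne true true 1 b' b ?_ y z l a)).elim
    by_contra h3
    push Not at h3
    exact h1 h3

theorem isClosed_cor : IsClosed (Cor F N : Set (Op Y L)) := by
  have h : (Cor F N : Set (Op Y L)) = {K | Eqv K} ∩
      ⋂ (y : Y) (z : Y) (l : L) (a : L) (_ : ¬ (y ∈ F ∧ z ∈ F ∧ a * l⁻¹ ∈ N)),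
        {K : Op Y L | K (dl (y, l)) (z, a) = 0} := by
    ext K
    simp only [Cor, Set.mem_inter_iff, Set.mem_ofPred_eq, Set.mem_iInter]
    refine and_congr_right fun _ => ⟨fun h y z l a hn => ?_, fun h y z l a hn => ?_⟩
    · by_contra h1
      exact hn (h y z l a h1)
    · by_contra h1
      exact hn (h y z l a h1)
  rw [h]
  refine IsClosed.inter Vale.Agent.P184.H856.eqv_closed ?_
  refine isClosed_iInter fun y => isClosed_iInter fun z => isClosed_iInter fun l =>
    isClosed_iInter fun a => isClosed_iInter fun _ => ?_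
  refine isClosed_eq ?_ continuous_const
  exact (co (z, a)).continuous.comp
    (ContinuousLinearMap.apply ℂ (E (Y × L)) (dl (y, l))).continuous

/-- **Row C.** -/
theorem newt {F : Set (Bool × Y)} {N : Subgroup L} (z : Op (Bool × Y) L)
    (hz : z - blk true true 1 ∈ Cor F N) (h : ‖z * z - z‖ ≤ 1 / 16) :
    ∃ z' : Op (Bool × Y) L, z' * z' = z' ∧ z' - blk true true 1 ∈ Cor F N ∧
      ‖z' - z‖ ≤ 3 * (2 * ‖z‖ + 1) * ‖z * z - z‖ := by
  rcases isEmpty_or_nonempty Y with hY | ⟨⟨y₀⟩⟩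
  · have : IsEmpty ((Bool × Y) × L) := ⟨fun p => hY.false p.1.2⟩
    have hs : Subsingleton (Op (Bool × Y) L) := ⟨fun A B => ContinuousLinearMap.ext fun v =>
      E_ext fun p => (this.false p).elim⟩
    refine ⟨z, hs.elim _ _, hz, ?_⟩
    rw [sub_self, norm_zero]
    positivity
  have : Nontrivial (E ((Bool × Y) × L)) := by
    refine ⟨⟨dl ((true, y₀), 1), 0, fun h => ?_⟩⟩
    have h1 := dl_self (((true, y₀), 1) : (Bool × Y) × L)
    rw [h] at h1
    exact zero_ne_one h1
  set p : Op (Bool × Y) L := blk true true 1 with hp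
  have hpp : p * p = p := by
    rw [hp, blk_mul_same, one_mul]
  have ep : Eqv p := eqv_blk true true eqv_one
  have dp : Diag p := diag_blk
  let S : Set (Op (Bool × Y) L) := {z | z - p ∈ Cor F N}
  have hS : IsClosed S := isClosed_cor.preimage (continuous_id.sub continuous_const)
  have hst : ∀ a ∈ S, nw a ∈ S := by
    intro a ha
    set c := a - p with hc
    have ha' : c ∈ Cor F N := ha
    have e1 : a = p + c := by rw [hc]; abel
    set s := p * c + c * p + c * c with hs
    have hsm : s ∈ Cor F N :=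
      cor_add (cor_add (cor_diag_mul ha' ep dp) (cor_mul_diag ha' ep dp)) (cor_mul ha' ha')
    have e2 : a * a = p + s := by
      have : a * a = p * p + (p * c + c * p + c * c) := by
        rw [e1]
        noncomm_ring
      rw [this, hpp]
    set r := p * c + s * p + s * c with hr
    have hrm : r ∈ Cor F N :=
      cor_add (cor_add (cor_diag_mul ha' ep dp) (cor_mul_diag hsm ep dp)) (cor_mul hsm ha')
    have e3 : a * a * a = p + r := by
      have : a * a * a = p * p + (p * c + s * p + s * c) := by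
        rw [e2, e1]
        noncomm_ring
      rw [this, hpp]
    have e4 : nw a - p = (s + s + s) - (r + r) := by
      unfold nw
      rw [e3, e2]
      noncomm_ring
    change nw a - p ∈ Cor F N
    rw [e4]
    exact cor_sub (cor_add (cor_add hsm hsm) hsm) (cor_add hrm hrm)
  obtain ⟨f, hf1, hf2, hf3⟩ := exists_idem_near hS hst z hz h
  exact ⟨f, hf2, hf1, hf3⟩

end Vale.Agent.P184.H113.LocC
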