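import Vale.Agent.P184.Bdl.B4

/-!
# Finitely generated virtually abelian groups are amenable, hence nice
-/

namespace Vale.Agent.P184.H113

open Vale.Agent.P184

theorem amen_int : IsAmenable (Multiplicative ℤ) := by
  obtain ⟨m, h1, h2, h3, h4⟩ := exists_zmean
  have h5 : ∀ (n : ℕ) (f : ℤ → ℝ), (∃ K, ∀ h, |f h| ≤ K) → m (fun z => f (z + n)) = m f := by
    intro n
    induction n with
    | zero => intro f _; simp
    | succ n ih =>
      intro f hf
      have h6 : ∃ K, ∀ h, |(fun z : ℤ => f (z + 1)) h| ≤ K := by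
        obtain ⟨K, hK⟩ := hf
        exact ⟨K, fun h => hK _⟩
      have h7 := ih (fun z => f (z + 1)) h6
      rw [h4 f hf] at h7
      rw [← h7]
      refine congrArg m (funext fun z => congrArg f ?_)
      push_cast
      ring
  have h6 : ∀ (n : ℤ) (f : ℤ → ℝ), (∃ K, ∀ h, |f h| ≤ K) → m (fun z => f (z + n)) = m f := by
    intro n f hf
    rcases le_total 0 n with hn | hn
    · obtain ⟨k, rfl⟩ := Int.eq_ofNat_of_zero_le hn
      exact h5 k f hf
    · obtain ⟨k, hk⟩ := Int.eq_ofNat_of_zero_le (neg_nonneg.2 hn)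
      have h7 : ∃ K, ∀ h, |(fun z : ℤ => f (z + n)) h| ≤ K := by
        obtain ⟨K, hK⟩ := hf
        exact ⟨K, fun h => hK _⟩
      rw [← h5 k (fun z => f (z + n)) h7]
      refine congrArg m (funext fun z => congrArg f ?_)
      omega
  refine ⟨fun f => m fun z => f (Multiplicative.ofAdd z), ?_, ?_, ?_, ?_⟩
  · rintro f g ⟨K, hK⟩ ⟨K', hK'⟩
    exact h1 _ _ ⟨K, fun _ => hK _⟩ ⟨K', fun _ => hK' _⟩
  · rintro f ⟨K, hK⟩ h0
    exact h2 _ ⟨K, fun _ => hK _⟩ fun _ => h0 _
  · exact fun c => h3 c
  · rintro f k ⟨K, hK⟩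
    show (m fun z => f (k * Multiplicative.ofAdd z)) = m fun z => f (Multiplicative.ofAdd z)
    rw [← h6 (Multiplicative.toAdd k) (fun z => f (Multiplicative.ofAdd z)) ⟨K, fun _ => hK _⟩]
    refine congrArg m (funext fun z => congrArg f ?_)
    rw [ofAdd_add, ofAdd_toAdd, mul_comm]

theorem amen_fg {A : Type*} [AddCommGroup A] [AddGroup.FG A] : IsAmenable (Multiplicative A) := by
  classical
  obtain ⟨n, ι, _, p, hp, e, ⟨f⟩⟩ := AddCommGroup.equiv_free_prod_directSum_zmod A
  have h1 : IsAmenable (Fin n → Multiplicative ℤ) := isAmenable_pi amen_int (Fin n)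
  have h2 : ∀ i, NeZero (p i ^ e i) := fun i => ⟨pow_ne_zero _ (hp i).ne_zero⟩
  have h3 : Finite (∀ i : ι, Multiplicative (ZMod (p i ^ e i))) := by
    haveI := fun i => (inferInstance : Finite (ZMod (p i ^ e i)))
    infer_instance
  have h4 : IsAmenable (∀ i : ι, Multiplicative (ZMod (p i ^ e i))) := isAmenable_of_finite
  refine isAmenable_of_injective
    (B := (Fin n → Multiplicative ℤ) × (∀ i : ι, Multiplicative (ZMod (p i ^ e i))))
    { toFun := fun a => (fun i => Multiplicative.ofAdd ((f a.toAdd).1 i),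
        fun i => Multiplicative.ofAdd ((f a.toAdd).2 i))
      map_one' := by
        rw [toAdd_one, map_zero]
        rfl
      map_mul' := fun a b => by
        rw [toAdd_mul, map_add]
        rfl } ?_ (isAmenable_prod h1 h4)
  intro a b hab
  have h5 : f a.toAdd = f b.toAdd := by
    refine Prod.ext (Finsupp.ext fun i => ?_) (DFinsupp.ext fun i => ?_)
    · exact congrFun (congrArg Prod.fst hab) i
    · exact congrFun (congrArg Prod.snd hab) i
  exact f.injective h5

/-- A group with a finitely generated abelian normal subgroup of finite index is amenable. -/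
theorem amen_va {L : Type*} [Group L] [Group.FG L] (M : Subgroup L) [M.Normal] [M.FiniteIndex]
    (hM : ∀ x ∈ M, ∀ y ∈ M, x * y = y * x) : IsAmenable L := by
  letI : CommGroup M :=
    { (inferInstance : Group M) with
      mul_comm := fun a b => Subtype.ext (hM a a.2 b b.2) }
  haveI hfg : Group.FG M := Subgroup.fg_of_index_ne_zero M
  have h1 : IsAmenable M :=
    isAmenable_of_injective (B := Multiplicative (Additive M))
      { toFun := fun a => Multiplicative.ofAdd (Additive.ofMul a)
        map_one' := rfl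
        map_mul' := fun _ _ => rfl } (fun a b h => h) amen_fg
  refine isAmenable_of_ker (QuotientGroup.mk' M) ?_ isAmenable_of_finite
  rw [QuotientGroup.ker_mk']
  exact h1

theorem coAmen_of {L : Type*} [Group L] (h : IsAmenable L) : W.CoAmenable (⊤ : Subgroup L) ⊥ := by
  obtain ⟨m, h1, h2, h3, h4⟩ := h
  have hb : ∀ f, W.BddInv (⊤ : Subgroup L) ⊥ f → ∃ K, ∀ h : L, |f h⁻¹| ≤ K := by
    rintro f ⟨⟨K, hK⟩, _⟩
    exact ⟨K, fun h => hK _ (Subgroup.mem_top _)⟩
  refine ⟨fun f => m fun h => f h⁻¹, ?_, ?_, ?_, ?_⟩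
  · intro f g hf hg
    exact h1 _ _ (hb f hf) (hb g hg)
  · intro f hf h0
    exact h2 _ (hb f hf) fun h => h0 _ (Subgroup.mem_top _)
  · exact fun r => h3 r
  · intro f hf k _
    show (m fun h => f (h⁻¹ * k)) = m fun h => f h⁻¹
    rw [← h4 (fun h => f h⁻¹) k⁻¹ (hb f hf)]
    refine congrArg m (funext fun z => congrArg f ?_)
    rw [mul_inv_rev, inv_inv]

/-- **(T2)** A finitely generated virtually abelian group is nice. -/
theorem nice_va {L : Type*} [Group L] [Group.FG L] (M : Subgroup L) [M.Normal] [M.FiniteIndex]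
    (hM : ∀ x ∈ M, ∀ y ∈ M, x * y = y * x) : W.Nice L :=
  W.nice_of_almostAmen (Or.inl (coAmen_of (amen_va M hM)))

end Vale.Agent.P184.H113
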