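import Vale.Agent.P184.H113.K3
import Vale.Agent.P184.H977.K2

/-!
# P184, row K3
-/

namespace Vale.Agent.P184.H113

/-- Row K3. -/
theorem rowK3.{u, v, w} : Vale.Agent.P184.H13.RowK3.{u, v, w} :=
  rowK3_of Vale.Agent.P184.H977.rowK1 Vale.Agent.P184.H977.rowK2

end Vale.Agent.P184.H113
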