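import Mathlib

/-!
# P184: a 2-generator group containing a given countable group (HNN extension over free subgroups)

For a countable group `K = {h 0 = 1, h 1, h 2, ...}` put `Bs K = K * F(x, y)`,
`A = ⟨y⁻ⁱ x yⁱ⟩`, `B = ⟨hᵢ x⁻ⁱ y xⁱ⟩` (`i ≥ 0`). Both are free on the written generators, also after
killing `K`; the HNN extension `t (y⁻ⁱ x yⁱ) t⁻¹ = hᵢ x⁻ⁱ y xⁱ` is generated by `x` and `t`.
-/

namespace Vale.Agent.P184.H113

universe u

open Monoid.Coprod

/-! ### the free subgroup of conjugates in `F(x, y)` -/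

/-- the shift -/
def shiftAut : MulAut (FreeGroup ℤ) := FreeGroup.freeGroupCongr (Equiv.addRight (1 : ℤ))

/-- the shift action of `ℤ` -/
def sh : Multiplicative ℤ →* MulAut (FreeGroup ℤ) := zpowersHom _ shiftAut

theorem sh_of (n : ℤ) (k : ℤ) :
    sh (Multiplicative.ofAdd n) (FreeGroup.of k) = FreeGroup.of (k + n) := by
  have h1 : ∀ k : ℤ, shiftAut (FreeGroup.of k) = FreeGroup.of (k + 1) := fun k => by
    simp [shiftAut]
  have h2 : ∀ k : ℤ, shiftAut⁻¹ (FreeGroup.of k) = FreeGroup.of (k - 1) := fun k => by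
    have h := h1 (k - 1)
    rw [sub_add_cancel] at h
    rw [← h, MulAut.inv_apply_self]
  have h0 : sh (Multiplicative.ofAdd n) = shiftAut ^ n := by
    simp [sh]
  rw [h0]
  clear h0
  induction n using Int.induction_on generalizing k with
  | zero => simp
  | succ n ih =>
    rw [zpow_add_one, MulAut.mul_apply, h1, ih]
    congr 1
    ring
  | pred n ih =>
    rw [zpow_sub_one, MulAut.mul_apply, h2, ih]
    congr 1
    ring

/-- the test map, `b ↦` the generator, `!b ↦` the shift -/
noncomputable def test (b : Bool) : FreeGroup Bool →* FreeGroup ℤ ⋊[sh] Multiplicative ℤ :=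
  FreeGroup.lift fun c => if c = b then SemidirectProduct.inl (FreeGroup.of 0) else
    SemidirectProduct.inr (Multiplicative.ofAdd 1)

/-- the conjugate `(!b)⁻ⁱ b (!b)ⁱ` -/
def cj (b : Bool) (i : ℕ) : FreeGroup Bool :=
  (FreeGroup.of (!b) ^ i)⁻¹ * FreeGroup.of b * FreeGroup.of (!b) ^ i

theorem test_cj (b : Bool) (i : ℕ) :
    test b (cj b i) = SemidirectProduct.inl (FreeGroup.of (-(i : ℤ))) := by
  have h1 : test b (FreeGroup.of b) = SemidirectProduct.inl (FreeGroup.of 0) := by
    simp [test]
  have h2 : test b (FreeGroup.of (!b)) = SemidirectProduct.inr (Multiplicative.ofAdd 1) := by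
    cases b <;> simp [test]
  have h4 : (Multiplicative.ofAdd (1 : ℤ)) ^ i = Multiplicative.ofAdd (i : ℤ) := by
    rw [← ofAdd_nsmul]
    simp
  have h3 := SemidirectProduct.inl_aut (φ := sh) (Multiplicative.ofAdd (-(i : ℤ)))
    (FreeGroup.of 0)
  rw [sh_of, zero_add, ofAdd_neg, inv_inv] at h3
  rw [cj, map_mul, map_mul, map_inv, map_pow, h1, h2, h3, ← map_pow, h4, map_inv]

/-- The elements `(!b)⁻ⁱ b (!b)ⁱ` of the free group freely generate a subgroup. -/
theorem cj_free (b : Bool) : Function.Injective (FreeGroup.lift (cj b)) := by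
  have h : (test b).comp (FreeGroup.lift (cj b)) =
      SemidirectProduct.inl.comp (FreeGroup.map fun i : ℕ => -(i : ℤ)) := by
    refine FreeGroup.ext_hom _ _ fun i => ?_
    simp only [MonoidHom.coe_comp, Function.comp_apply, FreeGroup.lift_apply_of,
      FreeGroup.map.of]
    exact test_cj b i
  have h2 : Function.Injective ((test b).comp (FreeGroup.lift (cj b))) := by
    rw [h, MonoidHom.coe_comp]
    refine SemidirectProduct.inl_injective.comp (FreeGroup.map_injective fun i j hij => ?_)
    simpa using hij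
  rw [MonoidHom.coe_comp] at h2
  exact h2.of_comp

/-! ### the base, the two free subgroups, the HNN extension -/

variable (K : Type u) [Group K]

/-- the base `K * F(x, y)`; `x = true`, `y = false` -/
abbrev Bs := Monoid.Coprod K (FreeGroup Bool)

/-- the generators `h i (!b)⁻ⁱ b (!b)ⁱ` -/
def gn (h : ℕ → K) (b : Bool) (i : ℕ) : Bs K := inl (h i) * inr (cj b i)

/-- the free group on the generators -/
def fm (h : ℕ → K) (b : Bool) : FreeGroup ℕ →* Bs K := FreeGroup.lift (gn K h b)

theorem snd_fm (h : ℕ → K) (b : Bool) : (snd : Bs K →* FreeGroup Bool).comp (fm K h b) =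
    FreeGroup.lift (cj b) := by
  refine FreeGroup.ext_hom _ _ fun i => ?_
  simp [fm, gn]

theorem snd_fm_inj (h : ℕ → K) (b : Bool) :
    Function.Injective ((snd : Bs K →* FreeGroup Bool).comp (fm K h b)) := by
  rw [snd_fm]
  exact cj_free b

theorem fm_inj (h : ℕ → K) (b : Bool) : Function.Injective (fm K h b) := by
  have h1 := snd_fm_inj K h b
  rw [MonoidHom.coe_comp] at h1
  exact h1.of_comp

/-- the free subgroup `⟨h i (!b)⁻ⁱ b (!b)ⁱ⟩` -/
abbrev Fr (h : ℕ → K) (b : Bool) : Subgroup (Bs K) := (fm K h b).range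

/-- The subgroups `Fr` survive when `K` is killed. -/
theorem eq_one_of_snd (h : ℕ → K) (b : Bool) {g : Bs K} (hg : g ∈ Fr K h b)
    (h1 : snd g = 1) : g = 1 := by
  obtain ⟨w, rfl⟩ := hg
  have h2 : w = 1 := by
    refine snd_fm_inj K h b ?_
    rw [MonoidHom.comp_apply, h1, map_one]
  rw [h2, map_one]

/-- the isomorphism of the free subgroups, `y⁻ⁱ x yⁱ ↦ h i x⁻ⁱ y xⁱ` -/
noncomputable def ph (h : ℕ → K) : Fr K (fun _ => 1) true ≃* Fr K h false :=
  (MonoidHom.ofInjective (fm_inj K (fun _ => 1) true)).symm.trans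
    (MonoidHom.ofInjective (fm_inj K h false))

theorem ph_apply (h : ℕ → K) (w : FreeGroup ℕ) :
    (ph K h ⟨fm K (fun _ => 1) true w, w, rfl⟩ : Bs K) = fm K h false w := by
  have h1 : (⟨fm K (fun _ => 1) true w, w, rfl⟩ : Fr K (fun _ => 1) true) =
    MonoidHom.ofInjective (fm_inj K (fun _ => 1) true) w := rfl
  rw [h1, ph, MulEquiv.trans_apply, MulEquiv.symm_apply_apply]
  rfl

/-- the HNN extension -/
abbrev Un (h : ℕ → K) := HNNExtension (Bs K) (Fr K (fun _ => 1) true) (Fr K h false) (ph K h)

theorem rel (h : ℕ → K) (i : ℕ) :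
    (HNNExtension.t : Un K h) * HNNExtension.of (inr (cj true i)) * HNNExtension.t⁻¹ =
      HNNExtension.of (inl (h i)) * HNNExtension.of (inr (cj false i)) := by
  have h1 := HNNExtension.equiv_eq_conj (φ := ph K h)
    ⟨fm K (fun _ => 1) true (FreeGroup.of i), FreeGroup.of i, rfl⟩
  rw [ph_apply] at h1
  have h2 : fm K (fun _ => 1) true (FreeGroup.of i) = inr (cj true i) := by
    simp [fm, gn]
  have h3 : fm K h false (FreeGroup.of i) = inl (h i) * inr (cj false i) := by
    simp [fm, gn]
  rw [h3] at h1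
  simp only [h2] at h1
  rw [← map_mul, h1]

/-- The HNN extension is generated by `x` and `t`. -/
theorem gen (h : ℕ → K) (h0 : h 0 = 1) (hs : ∀ k, ∃ i, h i = k) :
    Subgroup.closure {(HNNExtension.of (inr (FreeGroup.of true)) : Un K h), HNNExtension.t} =
      ⊤ := by
  set S := Subgroup.closure {(HNNExtension.of (inr (FreeGroup.of true)) : Un K h),
    HNNExtension.t} with hS
  have hx : (HNNExtension.of (inr (FreeGroup.of true)) : Un K h) ∈ S :=
    Subgroup.subset_closure (Or.inl rfl)
  have ht : (HNNExtension.t : Un K h) ∈ S := Subgroup.subset_closure (Or.inr rfl)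
  have hy : (HNNExtension.of (inr (FreeGroup.of false)) : Un K h) ∈ S := by
    have h1 := rel K h 0
    have h2 : ∀ b, cj b 0 = FreeGroup.of b := fun b => by simp [cj]
    rw [h0, h2, h2, map_one, map_one, one_mul] at h1
    rw [← h1]
    exact S.mul_mem (S.mul_mem ht hx) (S.inv_mem ht)
  have hb : ∀ b, (HNNExtension.of (inr (FreeGroup.of b)) : Un K h) ∈ S := by
    intro b
    cases b
    · exact hy
    · exact hx
  have hf : ∀ w : FreeGroup Bool, (HNNExtension.of (inr w) : Un K h) ∈ S := by
    intro w
    induction w using FreeGroup.induction_on with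
    | C1 => rw [map_one, map_one]; exact S.one_mem
    | of b => exact hb b
    | inv_of b _ => rw [map_inv, map_inv]; exact S.inv_mem (hb b)
    | mul a b ha hb => rw [map_mul, map_mul]; exact S.mul_mem ha hb
  have hc : ∀ b i, (HNNExtension.of (inr (cj b i)) : Un K h) ∈ S := fun b i => hf _
  have hk : ∀ k : K, (HNNExtension.of (inl k) : Un K h) ∈ S := by
    intro k
    obtain ⟨i, rfl⟩ := hs k
    have h1 := rel K h i
    have h2 : (HNNExtension.of (inl (h i)) : Un K h) =
        HNNExtension.t * HNNExtension.of (inr (cj true i)) * HNNExtension.t⁻¹ *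
          (HNNExtension.of (inr (cj false i)))⁻¹ := by
      rw [h1, mul_inv_cancel_right]
    rw [h2]
    exact S.mul_mem (S.mul_mem (S.mul_mem ht (hc _ _)) (S.inv_mem ht)) (S.inv_mem (hc _ _))
  have hof : ∀ g : Bs K, (HNNExtension.of g : Un K h) ∈ S := by
    intro g
    induction g using Monoid.Coprod.induction_on with
    | inl k => exact hk k
    | inr w => exact hf w
    | mul a b ha hb => rw [map_mul]; exact S.mul_mem ha hb
  rw [eq_top_iff]
  intro g _
  induction g using HNNExtension.induction_on with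
  | of g => exact hof g
  | t => exact ht
  | mul a b ha hb => exact S.mul_mem (ha trivial) (hb trivial)
  | inv a ha => exact S.inv_mem (ha trivial)

/-- `K` embeds. -/
theorem emb_inj (h : ℕ → K) : Function.Injective
    ((HNNExtension.of : Bs K →* Un K h).comp (inl : K →* Bs K)) := by
  rw [MonoidHom.coe_comp]
  exact (HNNExtension.of_injective _).comp inl_injective

/-- An element of `K` which is conjugate in `K * F(x, y)` into one of the two free subgroups is
trivial. -/
theorem eq_one_of_conj (h : ℕ → K) (b : Bool) (k : K) (g : Bs K)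
    (hg : g * inl k * g⁻¹ ∈ Fr K h b) : k = 1 := by
  have h1 := eq_one_of_snd K h b hg (by simp)
  have h2 : (inl k : Bs K) = 1 := by
    rwa [conj_eq_one_iff] at h1
  refine inl_injective (M := K) (N := FreeGroup Bool) ?_
  rw [h2, map_one]

/-- Elements of `K` which are conjugate in `K * F(x, y)` are conjugate in `K`. -/
theorem isConj_of_base {k l : K} (h : IsConj (inl k : Bs K) (inl l)) : IsConj k l := by
  have h1 := (fst : Bs K →* K).map_isConj h
  simpa using h1

end Vale.Agent.P184.H113
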