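import Vale.Agent.P184.H113.RwVa
import Vale.Agent.P184.H113.NiceVa
import Vale.Agent.P184.H290.TSep
import Vale.Agent.P184.H788.ProdN
import Vale.Agent.P184.H856.LocMain

/-!
# Restricted wreath products with a virtually abelian base
-/

namespace Vale.Agent.P184.H113

open Vale.Agent.P184 Vale.Agent.P184.H788

universe u v w

/-- **(4')** Wreath products with a virtually abelian base, for any top group and any spectator. -/
theorem wreath_va {S : Type w} {B : Type u} {Q : Type v} [Group S] [Group B] [Group Q]
    (A0 : Subgroup B) [A0.FiniteIndex] (hA0 : ∀ x ∈ A0, ∀ y ∈ A0, x * y = y * x) :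
    L1Bass (S × H977.RW B Q) ↔ L1Bass (S × Q) := by
  constructor
  · intro h
    exact H11.l1Bass_retract (P := S × H977.RW B Q) (Q := S × Q)
      (MonoidHom.prodMap (MonoidHom.id S) (H977.RW.incl (B := B) (Q := Q)))
      (MonoidHom.prodMap (MonoidHom.id S) (H977.RW.proj (B := B) (Q := Q))) (fun _ => rfl) h
  · intro hQ
    have hS : L1Bass S := H11.l1Bass_retract (P := S × Q) (Q := S) (MonoidHom.inl S Q)
      (MonoidHom.fst S Q) (fun _ => rfl) hQ
    refine H856.Loc.wreath_of hQ fun s hs k => ?_
    haveI : Finite (Subgroup.zpowers s) := hs.finite_zpowers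
    refine (bass_prod_locNice fun T => ?_).2 hS
    obtain ⟨N, h1, h2, h3⟩ := rw_va_sub A0 hA0 (Subgroup.zpowers s) k
      (Subgroup.closure (T : Set (H977.RW (Fin k → B) (Subgroup.zpowers s))))
    haveI : Group.FG (Subgroup.closure (T : Set (H977.RW (Fin k → B) (Subgroup.zpowers s)))) :=
      Group.closure_finset_fg T
    exact ⟨nice_va N h3, H290.torSep_va inferInstance N h3⟩

end Vale.Agent.P184.H113
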